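import Vale.Agent.Lib.P021.GainMain

/-! The irrationality exponent of pi is at most `121 / 20`. -/

namespace Vale.Agent.Results.P021.A_gain

/-- For all large denominators `q`, every fraction `p / q` satisfies
`|pi - p / q| > q ^ (-121 / 20)`. Hence the irrationality exponent of pi is at most `6.05`. -/
theorem result : ∃ Q : ℝ, 1 ≤ Q ∧ ∀ p q : ℤ, Q ≤ q →
    1 / (q : ℝ) ^ (121 / 20 : ℝ) < |Real.pi - p / q| :=
  Vale.Agent.Lib.P021.main_gain_final 200 rfl

end Vale.Agent.Results.P021.A_gain
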